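import Vale.Agent.P207.Q.H413.Rigid
import Mathlib.Analysis.Calculus.Deriv.Basic

/-!
# P207: the geodesic flow acting on the smooth functions of a `Cal`
-/

open MeasureTheory Filter Topology Set

noncomputable section

namespace Vale.Agent.P207.Q.H183

open Vale.Agent.P207.Q.H413

variable {P : Type*} [TopologicalSpace P] [CompactSpace P] [MeasurableSpace P] [BorelSpace P]
  {m : Measure P} [IsFiniteMeasure m]

/-- The flow of `X` and its action on the smooth functions. -/
structure FlowS (c : Cal (intL m)) where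
  φ : ℝ → P → P
  cont : Continuous fun q : ℝ × P => φ q.1 q.2
  zero : ∀ p, φ 0 p = p
  add : ∀ s t p, φ (s + t) p = φ s (φ t p)
  /-- `pull r f = f ∘ φ r` -/
  pull : ℝ → c.S → c.S
  pull_apply : ∀ r f p, ((pull r f : c.S) : C(P, ℝ)) p = (f : C(P, ℝ)) (φ r p)
  contY : ∀ k f, Continuous fun q : ℝ × P => ((c.Y k (pull q.1 f) : c.S) : C(P, ℝ)) q.2
  deriv : ∀ (f : c.S) (p : P) (r : ℝ), HasDerivAt (fun r => (f : C(P, ℝ)) (φ r p))
    (((c.Y .X f : c.S) : C(P, ℝ)) (φ r p)) r

end Vale.Agent.P207.Q.H183
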