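import Vale.Agent.P207.Q.H183.JetInt
import Vale.Agent.P207.Q.H183.FlowS
import Mathlib.Analysis.CStarAlgebra.Matrix

/-!
# P207, block JU: the unstable solution `U` of the Riccati equation is a `C¹` jet
-/

open MeasureTheory Filter Topology Set
open scoped Matrix.Norms.L2Operator RealInnerProductSpace

set_option linter.unusedSectionVars false

noncomputable section

namespace Vale.Agent.P207.Q.H183

open Vale.Agent.P207.Q.H413 Vale.Agent.P207.Q.Ric

/-- `2 × 2` matrices -/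
abbrev M2 := Matrix (Fin 2) (Fin 2) ℝ

instance instCompleteM2 : CompleteSpace M2 := FiniteDimensional.complete ℝ M2

/-- the entries -/
def ent (i j : Fin 2) : M2 →L[ℝ] ℝ := LinearMap.toContinuousLinearMap (Matrix.entryLinearMap ℝ ℝ i j)

@[simp] theorem ent_apply (i j : Fin 2) (a : M2) : ent i j a = a i j := rfl

/-- `L` commutes with continuous linear maps -/
theorem clm_L {Θ A B : Type*} [NormedRing A] [NormedAlgebra ℝ A] [CompleteSpace A]
    [NormedRing B] [NormedAlgebra ℝ B] [CompleteSpace B] (l : A →L[ℝ] B) {Λ κ Bd : ℝ}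
    (hκ : 0 ≤ κ) (h : κ < 2 * Λ) (hB : 0 ≤ Bd) {G : Θ → ℝ → A} {θ : Θ} (hc : Continuous (G θ))
    (hG : ∀ r, ‖G θ r‖ ≤ Bd * Real.exp (κ * |r|)) (s : ℝ) :
    l (L Λ G θ s) = L Λ (fun θ r => l (G θ r)) θ s := by
  unfold L
  rw [← l.integral_comp_comm (integrand_int hκ h hB hc hG s)]
  simp only [map_smul]

section Cont

variable {P : Type*} [TopologicalSpace P] [CompactSpace P]

/-- a time slice of a jointly continuous function -/
def cm (G : P → ℝ → ℝ) (hG : Continuous (Function.uncurry G)) (r : ℝ) : C(P, ℝ) :=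
  ⟨fun p => G p r, hG.comp (continuous_id.prodMk continuous_const)⟩

@[simp] theorem cm_apply (G : P → ℝ → ℝ) (hG : Continuous (Function.uncurry G)) (r : ℝ) (p : P) :
    cm G hG r p = G p r := rfl

theorem cm_cont (G : P → ℝ → ℝ) (hG : Continuous (Function.uncurry G)) :
    Continuous (cm G hG) := by
  refine ContinuousMap.continuous_of_continuous_uncurry _ ?_
  exact hG.comp (continuous_snd.prodMk continuous_fst)

theorem cm_norm {G : P → ℝ → ℝ} (hG : Continuous (Function.uncurry G)) {b : ℝ} (hb : 0 ≤ b)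
    {r : ℝ} (h : ∀ p, |G p r| ≤ b) : ‖cm G hG r‖ ≤ b := by
  rw [ContinuousMap.norm_le _ hb]
  exact fun p => h p

variable [MeasurableSpace P] [BorelSpace P] {m : Measure P} [IsFiniteMeasure m]
  {c : Cal (intL m)}

/-- jets are stable under `L` -/
theorem jet_L {Λ κ B : ℝ} (hκ : 0 ≤ κ) (h : κ < 2 * Λ) (hB : 0 ≤ B) {G : P → ℝ → ℝ}
    {D : Idx → P → ℝ → ℝ} (hG : Continuous (Function.uncurry G))
    (hGb : ∀ p r, |G p r| ≤ B * Real.exp (κ * |r|))
    (hD : ∀ k, Continuous (Function.uncurry (D k)))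
    (hDb : ∀ k p r, |D k p r| ≤ B * Real.exp (κ * |r|))
    (hj : ∀ r, Jet c (cm G hG r) (fun k => cm (D k) (hD k) r))
    (hLG : Continuous (Function.uncurry (L Λ G)))
    (hLD : ∀ k, Continuous (Function.uncurry (L Λ (D k)))) (s : ℝ) :
    Jet c (cm (L Λ G) hLG s) (fun k => cm (L Λ (D k)) (hLD k) s) := by
  have hb : ∀ r, 0 ≤ B * Real.exp (κ * |r|) := fun r => by positivity
  have i1 : IntegrableOn (fun u => Real.exp (-(2 * Λ) * u) • cm G hG (s - u)) (Ioi (0 : ℝ)) :=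
    integrand_int hκ h hB (cm_cont G hG) (fun r => cm_norm hG (hb r) (fun p => hGb p r)) s
  have i2 : ∀ k, IntegrableOn (fun u => Real.exp (-(2 * Λ) * u) • cm (D k) (hD k) (s - u))
      (Ioi (0 : ℝ)) := fun k =>
    integrand_int hκ h hB (cm_cont _ (hD k)) (fun r => cm_norm (hD k) (hb r)
      (fun p => hDb k p r)) s
  have hJ := jet_integral (c := c) (μ := volume.restrict (Ioi (0 : ℝ)))
    (F := fun u => Real.exp (-(2 * Λ) * u) • cm G hG (s - u))
    (D := fun u k => Real.exp (-(2 * Λ) * u) • cm (D k) (hD k) (s - u))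
    (fun u => jet_smul (hj (s - u)) _) i1 i2
  refine hJ.congr ?_ fun k => ?_
  · ext p
    have := (ContinuousMap.evalCLM ℝ p).integral_comp_comm i1
    simpa [L] using this.symm
  · ext p
    have := (ContinuousMap.evalCLM ℝ p).integral_comp_comm (i2 k)
    simpa [L] using this.symm

end Cont

/-! ### the norm of a symmetric operator -/

theorem norm_le_of_quad {E : Type*} [NormedAddCommGroup E] [InnerProductSpace ℝ E]
    (T : E →L[ℝ] E) (hs : ∀ x y, ⟪T x, y⟫ = ⟪x, T y⟫) {b : ℝ} (hb : 0 ≤ b)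
    (h : ∀ x, |⟪T x, x⟫| ≤ b * ‖x‖ ^ 2) : ‖T‖ ≤ b := by
  refine ContinuousLinearMap.opNorm_le_bound _ hb fun x => ?_
  rcases eq_or_ne (T x) 0 with h0 | h0
  · rw [h0, norm_zero]; positivity
  have hx : x ≠ 0 := by
    rintro rfl; exact h0 (map_zero T)
  have hxn : 0 < ‖x‖ := norm_pos_iff.2 hx
  have hTn : 0 < ‖T x‖ := norm_pos_iff.2 h0
  set y : E := (‖x‖ / ‖T x‖) • T x with hy
  have hyn : ‖y‖ = ‖x‖ := by
    rw [hy, norm_smul, Real.norm_eq_abs, abs_of_pos (by positivity)]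
    field_simp
  have h1 : ⟪T x, y⟫ = ‖x‖ * ‖T x‖ := by
    rw [hy, inner_smul_right, real_inner_self_eq_norm_sq]; field_simp
  have h2 : 4 * ⟪T x, y⟫ = ⟪T (x + y), x + y⟫ - ⟪T (x - y), x - y⟫ := by
    have : ⟪T y, x⟫ = ⟪T x, y⟫ := by rw [hs, real_inner_comm]
    simp only [map_add, map_sub, inner_add_left, inner_add_right, inner_sub_left, inner_sub_right,
      this]
    ring
  have h3 := abs_le.1 (h (x + y))
  have h4 := abs_le.1 (h (x - y))
  have h5 := parallelogram_law_with_norm ℝ x y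
  have h6 : 4 * (‖x‖ * ‖T x‖) ≤ b * (2 * (‖x‖ ^ 2 + ‖x‖ ^ 2)) := by
    rw [← h1, h2]
    have : b * (2 * (‖x‖ ^ 2 + ‖x‖ ^ 2)) = b * ‖x + y‖ ^ 2 + b * ‖x - y‖ ^ 2 := by
      rw [hyn] at h5
      rw [← mul_add]; congr 1; nlinarith
    rw [this]; linarith [h3.2, h4.1]
  have h7 : ‖x‖ * ‖T x‖ ≤ ‖x‖ * (b * ‖x‖) := by nlinarith
  exact le_of_mul_le_mul_left h7 hxn

/-- the quadratic form of a matrix -/
def qf (x y : ℝ) (a : M2) : ℝ := a 0 0 * x ^ 2 + (a 0 1 + a 1 0) * (x * y) + a 1 1 * y ^ 2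

theorem norm_M2_le {a : M2} (hs : a 1 0 = a 0 1) {b : ℝ} (hb : 0 ≤ b)
    (h : ∀ x y, |qf x y a| ≤ b * (x ^ 2 + y ^ 2)) : ‖a‖ ≤ b := by
  have e : ‖a‖ = ‖Matrix.toEuclideanCLM (n := Fin 2) (𝕜 := ℝ) a‖ := rfl
  rw [e]
  refine norm_le_of_quad _ (fun x y => ?_) hb fun x => ?_
  · rw [real_inner_comm, Matrix.inner_toEuclideanCLM, Matrix.inner_toEuclideanCLM]
    simp only [Matrix.mulVec, dotProduct, Fin.sum_univ_two, hs]
    ring
  · rw [real_inner_comm, Matrix.inner_toEuclideanCLM, EuclideanSpace.norm_sq_eq]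
    have := h (x 0) (x 1)
    simp only [Matrix.mulVec, dotProduct, Fin.sum_univ_two, Real.norm_eq_abs, sq_abs, qf] at this ⊢
    refine le_trans (le_of_eq ?_) this
    congr 1; ring

theorem qf_le_norm (a : M2) (x y : ℝ) : |qf x y a| ≤ ‖a‖ * (x ^ 2 + y ^ 2) := by
  set v : EuclideanSpace ℝ (Fin 2) := WithLp.toLp 2 ![x, y] with hv
  have h1 : ⟪v, Matrix.toEuclideanCLM (n := Fin 2) (𝕜 := ℝ) a v⟫ = qf x y a := by
    rw [Matrix.inner_toEuclideanCLM]
    simp [Matrix.mulVec, dotProduct, Fin.sum_univ_two, hv, qf]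
    ring
  have h2 : ‖v‖ ^ 2 = x ^ 2 + y ^ 2 := by
    rw [EuclideanSpace.norm_sq_eq]; simp [hv]
  rw [← h1, ← h2]
  calc |⟪v, Matrix.toEuclideanCLM (n := Fin 2) (𝕜 := ℝ) a v⟫|
      ≤ ‖v‖ * ‖Matrix.toEuclideanCLM (n := Fin 2) (𝕜 := ℝ) a v‖ := abs_real_inner_le_norm _ _
    _ ≤ ‖v‖ * (‖a‖ * ‖v‖) := by
        refine mul_le_mul_of_nonneg_left ?_ (norm_nonneg _)
        exact (Matrix.toEuclideanCLM (n := Fin 2) (𝕜 := ℝ) a).le_opNorm v
    _ = _ := by ring

/-- a crude bound of the norm by the entries -/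
theorem exists_norm_le : ∃ b : ℝ, 0 ≤ b ∧ ∀ (a : M2) (t : ℝ), 0 ≤ t → (∀ i j, |a i j| ≤ t) →
    ‖a‖ ≤ b * t := by
  refine ⟨∑ i : Fin 2, ∑ j : Fin 2, ‖(Matrix.single i j (1 : ℝ) : M2)‖, by positivity,
    fun a t ht h => ?_⟩
  rw [Matrix.matrix_eq_sum_single a, Finset.sum_mul]
  refine (norm_sum_le _ _).trans (Finset.sum_le_sum fun i _ => ?_)
  rw [Finset.sum_mul]
  refine (norm_sum_le _ _).trans (Finset.sum_le_sum fun j _ => ?_)
  have : (Matrix.single i j (a i j) : M2) = a i j • Matrix.single i j (1 : ℝ) := by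
    rw [Matrix.smul_single]; simp
  rw [this, norm_smul, mul_comm]
  exact mul_le_mul_of_nonneg_left (h i j) (norm_nonneg _)

end Vale.Agent.P207.Q.H183
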