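import Vale.Agent.P207.Q.H183.JU

/-!
# P207, block JU, second part
-/

open MeasureTheory Filter Topology Set
open scoped Matrix.Norms.L2Operator RealInnerProductSpace

set_option linter.unusedSectionVars false

noncomputable section

namespace Vale.Agent.P207.Q.H183

open Vale.Agent.P207.Q.H413 Vale.Agent.P207.Q.Ric

variable {P : Type*} [TopologicalSpace P] [CompactSpace P] [FirstCountableTopology P]
  [MeasurableSpace P] [BorelSpace P] {m : Measure P} [IsFiniteMeasure m] {c : Cal (intL m)}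

/-- The hypotheses on the curvature matrix. -/
structure KHyp (F : FlowS c) (K : Fin 2 → Fin 2 → c.S) (lam Λ κ C : ℝ) : Prop where
  lam_pos : 0 < lam
  le : lam ≤ Λ
  κ0 : 0 ≤ κ
  κ_lt : κ < 2 * lam
  C0 : 0 ≤ C
  sym : K 1 0 = K 0 1
  lower : ∀ p (x y : ℝ), lam ^ 2 * (x ^ 2 + y ^ 2) ≤
    (K 0 0 : C(P, ℝ)) p * x ^ 2 + 2 * (K 0 1 : C(P, ℝ)) p * (x * y) + (K 1 1 : C(P, ℝ)) p * y ^ 2
  upper : ∀ p (x y : ℝ), (K 0 0 : C(P, ℝ)) p * x ^ 2 + 2 * (K 0 1 : C(P, ℝ)) p * (x * y)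
    + (K 1 1 : C(P, ℝ)) p * y ^ 2 ≤ Λ ^ 2 * (x ^ 2 + y ^ 2)
  R00 : c.Y .R (K 0 0) = 2 * K 0 1
  R01 : c.Y .R (K 0 1) = K 1 1 - K 0 0
  R11 : c.Y .R (K 1 1) = - 2 * K 0 1
  R_pull : ∀ r i j, c.Y .R (F.pull r (K i j)) = F.pull r (c.Y .R (K i j))
  growth : ∀ k i j r p, |((c.Y k (F.pull r (K i j)) : c.S) : C(P, ℝ)) p| ≤
    C * Real.exp (κ * |r|)

variable {F : FlowS c} {K : Fin 2 → Fin 2 → c.S} {lam Λ κ C : ℝ}

/-- `N = Λ² - K ∘ φ_r` -/
def NK (F : FlowS c) (K : Fin 2 → Fin 2 → c.S) (Λ : ℝ) (p : P) (r : ℝ) : M2 :=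
  Matrix.of fun i j => (if i = j then Λ ^ 2 else 0) - (K i j : C(P, ℝ)) (F.φ r p)

/-- the derivatives of `N` -/
def MK (F : FlowS c) (K : Fin 2 → Fin 2 → c.S) (k : Idx) (p : P) (r : ℝ) : M2 :=
  Matrix.of fun i j => - ((c.Y k (F.pull r (K i j)) : c.S) : C(P, ℝ)) p

@[simp] theorem NK_apply (p : P) (r : ℝ) (i j : Fin 2) :
    NK F K Λ p r i j = (if i = j then Λ ^ 2 else 0) - (K i j : C(P, ℝ)) (F.φ r p) := rfl

@[simp] theorem MK_apply (k : Idx) (p : P) (r : ℝ) (i j : Fin 2) :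
    MK F K k p r i j = - ((c.Y k (F.pull r (K i j)) : c.S) : C(P, ℝ)) p := rfl

theorem continuous_M2 {X : Type*} [TopologicalSpace X] {f : X → M2}
    (h : ∀ i j, Continuous fun x => f x i j) : Continuous f :=
  continuous_matrix h

theorem hypN (h : KHyp F K lam Λ κ C) : HypN lam Λ (NK F K Λ) where
  lam_pos := h.lam_pos
  le := h.le
  cont := by
    refine continuous_M2 fun i j => ?_
    refine continuous_const.sub ?_
    exact (K i j : C(P, ℝ)).continuous.comp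
      (F.cont.comp (continuous_snd.prodMk continuous_fst))
  bound := fun p r => by
    have h1 := h.lam_pos
    have h2 := h.le
    refine norm_M2_le ?_ (by nlinarith) fun x y => ?_
    · simp [h.sym]
    · have l := h.lower (F.φ r p) x y
      have u := h.upper (F.φ r p) x y
      have e : qf x y (NK F K Λ p r) = Λ ^ 2 * (x ^ 2 + y ^ 2) -
          ((K 0 0 : C(P, ℝ)) (F.φ r p) * x ^ 2 + 2 * (K 0 1 : C(P, ℝ)) (F.φ r p) * (x * y)
            + (K 1 1 : C(P, ℝ)) (F.φ r p) * y ^ 2) := by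
        simp only [qf, NK_apply, h.sym]
        simp
        ring
      rw [e, abs_of_nonneg (by linarith)]
      linarith

theorem exists_hypM (h : KHyp F K lam Λ κ C) : ∃ C', ∀ k, HypM lam Λ κ C' (MK F K k) := by
  obtain ⟨b, hb, hb'⟩ := exists_norm_le
  refine ⟨b * C, fun k => ⟨h.κ0, h.κ_lt, mul_nonneg hb h.C0, ?_, fun p r => ?_⟩⟩
  · refine continuous_M2 fun i j => ?_
    refine Continuous.neg ?_
    exact (F.contY k (K i j)).comp (continuous_snd.prodMk continuous_fst)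
  · rw [mul_assoc]
    refine hb' _ _ (mul_nonneg h.C0 (Real.exp_pos _).le) fun i j => ?_
    rw [MK_apply, abs_neg]
    exact h.growth k i j r p

/-! ### algebraic properties of the iterates -/

section Alg

variable {Θ : Type*} [TopologicalSpace Θ] [FirstCountableTopology Θ] {N M : Θ → ℝ → M2} {C' : ℝ}

theorem Tk_bd (hN : HypN lam Λ N) (k : ℕ) (θ : Θ) (r : ℝ) :
    ‖N θ r + Tk Λ N k θ r * Tk Λ N k θ r‖ ≤
      ((Λ ^ 2 - lam ^ 2) + (Λ - lam) * (Λ - lam)) * Real.exp (0 * |r|) := by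
  have hle : 0 ≤ Λ - lam := sub_nonneg.2 hN.le
  rw [zero_mul, Real.exp_zero, mul_one]
  refine (norm_add_le _ _).trans (add_le_add (hN.bound θ r) ((norm_mul_le _ _).trans ?_))
  exact mul_le_mul (Tk_le hN k θ r) (Tk_le hN k θ r) (norm_nonneg _) hle

theorem Tk_B0 (hN : HypN lam Λ N) : 0 ≤ (Λ ^ 2 - lam ^ 2) + (Λ - lam) * (Λ - lam) := by
  have := hN.lam_pos
  nlinarith [hN.le]

theorem Tk_G (hN : HypN lam Λ N) (k : ℕ) :
    Continuous (Function.uncurry fun θ r => N θ r + Tk Λ N k θ r * Tk Λ N k θ r) :=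
  hN.cont.add ((Tk_cont hN k).mul (Tk_cont hN k))

theorem Sk_bd (hN : HypN lam Λ N) (hM : HypM lam Λ κ C' M) (k : ℕ) (θ : Θ) (r : ℝ) :
    ‖M θ r + (Sk Λ N M k θ r * Tk Λ N k θ r + Tk Λ N k θ r * Sk Λ N M k θ r)‖ ≤
      (C' + 2 * (Λ - lam) * Cd lam κ C') * Real.exp (κ * |r|) := by
  refine (norm_add_le _ _).trans ?_
  rw [add_mul]
  exact add_le_add (hM.bound θ r) (lin_bound hN hM (Sk_le hN hM k θ r) (Tk_le hN k θ r))

theorem Sk_B0 (hN : HypN lam Λ N) (hM : HypM lam Λ κ C' M) :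
    0 ≤ C' + 2 * (Λ - lam) * Cd lam κ C' := by
  have hle : 0 ≤ Λ - lam := sub_nonneg.2 hN.le
  have := Cd_nonneg hM
  have := hM.C0
  positivity

theorem Sk_G (hN : HypN lam Λ N) (hM : HypM lam Λ κ C' M) (k : ℕ) :
    Continuous (Function.uncurry fun θ r =>
      M θ r + (Sk Λ N M k θ r * Tk Λ N k θ r + Tk Λ N k θ r * Sk Λ N M k θ r)) :=
  hM.cont.add (((Sk_cont hN hM k).mul (Tk_cont hN k)).add
    ((Tk_cont hN k).mul (Sk_cont hN hM k)))

theorem cont_slice {X Y Z : Type*} [TopologicalSpace X] [TopologicalSpace Y] [TopologicalSpace Z]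
    {G : X → Y → Z} (h : Continuous (Function.uncurry G)) (x : X) : Continuous (G x) :=
  h.comp (continuous_const.prodMk continuous_id)

theorem Λ2_pos (hN : HypN lam Λ N) : (0 : ℝ) < 2 * Λ := by
  have := hN.lam_pos
  linarith [hN.le]

theorem clm_Tk (hN : HypN lam Λ N) {B : Type*} [NormedRing B] [NormedAlgebra ℝ B]
    [CompleteSpace B] (l : M2 →L[ℝ] B) (k : ℕ) (θ : Θ) (s : ℝ) :
    l (Tk Λ N (k + 1) θ s) = L Λ (fun θ r => l (N θ r + Tk Λ N k θ r * Tk Λ N k θ r)) θ s :=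
  clm_L (G := fun θ r => N θ r + Tk Λ N k θ r * Tk Λ N k θ r) l le_rfl (Λ2_pos hN) (Tk_B0 hN)
    (cont_slice (Tk_G hN k) θ) (Tk_bd hN k θ) s

theorem clm_Sk (hN : HypN lam Λ N) (hM : HypM lam Λ κ C' M) {B : Type*} [NormedRing B]
    [NormedAlgebra ℝ B] [CompleteSpace B] (l : M2 →L[ℝ] B) (k : ℕ) (θ : Θ) (s : ℝ) :
    l (Sk Λ N M (k + 1) θ s) = L Λ (fun θ r => l (M θ r +
      (Sk Λ N M k θ r * Tk Λ N k θ r + Tk Λ N k θ r * Sk Λ N M k θ r))) θ s :=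
  clm_L (G := fun θ r => M θ r + (Sk Λ N M k θ r * Tk Λ N k θ r + Tk Λ N k θ r * Sk Λ N M k θ r))
    l hM.κ0 (hM.lt hN) (Sk_B0 hN hM) (cont_slice (Sk_G hN hM k) θ) (Sk_bd hN hM k θ) s

theorem Tk_symm (hN : HypN lam Λ N) (hs : ∀ θ r, N θ r 1 0 = N θ r 0 1) (k : ℕ) :
    ∀ θ s, Tk Λ N k θ s 1 0 = Tk Λ N k θ s 0 1 := by
  induction k with
  | zero => intro θ s; simp [Tk]
  | succ k ih =>
    intro θ s
    have h1 := clm_Tk hN (ent 1 0) k θ s
    have h2 := clm_Tk hN (ent 0 1) k θ s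
    simp only [ent_apply] at h1 h2
    rw [h1, h2]
    congr 1
    funext θ r
    simp only [Matrix.add_apply, Matrix.mul_apply, Fin.sum_univ_two, hs, ih]
    ring

theorem Sk_symm (hN : HypN lam Λ N) (hM : HypM lam Λ κ C' M) (hs : ∀ θ r, N θ r 1 0 = N θ r 0 1)
    (hs' : ∀ θ r, M θ r 1 0 = M θ r 0 1) (k : ℕ) :
    ∀ θ s, Sk Λ N M k θ s 1 0 = Sk Λ N M k θ s 0 1 := by
  induction k with
  | zero => intro θ s; simp [Sk]
  | succ k ih =>
    intro θ s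
    have h1 := clm_Sk hN hM (ent 1 0) k θ s
    have h2 := clm_Sk hN hM (ent 0 1) k θ s
    simp only [ent_apply] at h1 h2
    rw [h1, h2]
    congr 1
    funext θ r
    simp only [Matrix.add_apply, Matrix.mul_apply, Fin.sum_univ_two, hs', ih, Tk_symm hN hs k]
    ring

/-- the rotation generator -/
def JJ : M2 := !![0, -1; 1, 0]

/-- `a ↦ a J - J a` -/
def adJ : M2 →L[ℝ] M2 :=
  (ContinuousLinearMap.mul ℝ M2).flip JJ - ContinuousLinearMap.mul ℝ M2 JJ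

theorem adJ_apply (a : M2) : adJ a = a * JJ - JJ * a := by
  simp [adJ]

theorem Sk_rot (hN : HypN lam Λ N) (hM : HypM lam Λ κ C' M)
    (hR : ∀ θ r, M θ r = adJ (N θ r)) (k : ℕ) :
    ∀ θ s, Sk Λ N M k θ s = adJ (Tk Λ N k θ s) := by
  induction k with
  | zero => intro θ s; simp [Sk, Tk]
  | succ k ih =>
    intro θ s
    have h1 := clm_Sk hN hM (ContinuousLinearMap.id ℝ M2) k θ s
    have h2 := clm_Tk hN adJ k θ s
    simp only [ContinuousLinearMap.id_apply] at h1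
    rw [h1, h2]
    congr 1
    funext θ r
    rw [ih, hR, adJ_apply, adJ_apply, adJ_apply]
    noncomm_ring

theorem Tk_flow {φ : ℝ → Θ → Θ} (hφ : ∀ θ t r, N (φ t θ) r = N θ (r + t))
    (k : ℕ) : ∀ θ t s, Tk Λ N k (φ t θ) s = Tk Λ N k θ (s + t) := by
  induction k with
  | zero => intro θ t s; rfl
  | succ k ih =>
    intro θ t s
    simp only [Tk, L]
    refine integral_congr_ae (Eventually.of_forall fun u => ?_)
    simp only [hφ, ih]
    rw [show s - u + t = s + t - u by ring]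

theorem T_flow (hN : HypN lam Λ N) {φ : ℝ → Θ → Θ} (hφ : ∀ θ t r, N (φ t θ) r = N θ (r + t))
    (θ : Θ) (t s : ℝ) : Ric.T Λ N (φ t θ) s = Ric.T Λ N θ (s + t) :=
  tendsto_nhds_unique (Tk_tendsto hN (φ t θ) s)
    ((Tk_tendsto hN θ (s + t)).congr fun k => (Tk_flow hφ k θ t s).symm)

theorem T_symm (hN : HypN lam Λ N) (hs : ∀ θ r, N θ r 1 0 = N θ r 0 1) (θ : Θ) (s : ℝ) :
    Ric.T Λ N θ s 1 0 = Ric.T Λ N θ s 0 1 := by
  have h1 := ((ent 1 0).continuous.tendsto _).comp (Tk_tendsto hN θ s)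
  have h2 := ((ent 0 1).continuous.tendsto _).comp (Tk_tendsto hN θ s)
  exact tendsto_nhds_unique h1 (h2.congr fun k => (Tk_symm hN hs k θ s).symm)

theorem S_symm (hN : HypN lam Λ N) (hM : HypM lam Λ κ C' M) (hs : ∀ θ r, N θ r 1 0 = N θ r 0 1)
    (hs' : ∀ θ r, M θ r 1 0 = M θ r 0 1) (θ : Θ) (s : ℝ) :
    Ric.S Λ N M θ s 1 0 = Ric.S Λ N M θ s 0 1 := by
  have h1 := ((ent 1 0).continuous.tendsto _).comp (Sk_tendsto hN hM θ s)
  have h2 := ((ent 0 1).continuous.tendsto _).comp (Sk_tendsto hN hM θ s)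
  exact tendsto_nhds_unique h1 (h2.congr fun k => (Sk_symm hN hM hs hs' k θ s).symm)

theorem S_rot (hN : HypN lam Λ N) (hM : HypM lam Λ κ C' M)
    (hR : ∀ θ r, M θ r = adJ (N θ r)) (θ : Θ) (s : ℝ) :
    Ric.S Λ N M θ s = adJ (Ric.T Λ N θ s) := by
  have h1 := (adJ.continuous.tendsto _).comp (Tk_tendsto hN θ s)
  exact tendsto_nhds_unique (Sk_tendsto hN hM θ s)
    (h1.congr fun k => (Sk_rot hN hM hR k θ s).symm)

/-- the quadratic form as a continuous linear map -/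
def qL (x y : ℝ) : M2 →L[ℝ] ℝ :=
  (x ^ 2) • ent 0 0 + (x * y) • (ent 0 1 + ent 1 0) + (y ^ 2) • ent 1 1

theorem qL_apply (x y : ℝ) (a : M2) : qL x y a = qf x y a := by
  simp [qL, qf]; ring

/-- `T ≥ 0` if `N ≥ 0` -/
theorem T_nonneg (hN : HypN lam Λ N) (hs : ∀ θ r, N θ r 1 0 = N θ r 0 1)
    (h0 : ∀ θ r x y, 0 ≤ qf x y (N θ r)) (θ : Θ) (s x y : ℝ) : 0 ≤ qf x y (Ric.T Λ N θ s) := by
  rw [T_eq hN θ s, ← qL_apply]
  have hb : ∀ r, ‖N θ r + Ric.T Λ N θ r * Ric.T Λ N θ r‖ ≤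
      ((Λ ^ 2 - lam ^ 2) + (Λ - lam) * (Λ - lam)) * Real.exp (0 * |r|) := by
    intro r
    have hle : 0 ≤ Λ - lam := sub_nonneg.2 hN.le
    rw [zero_mul, Real.exp_zero, mul_one]
    refine (norm_add_le _ _).trans (add_le_add (hN.bound θ r) ((norm_mul_le _ _).trans ?_))
    exact mul_le_mul (T_le hN θ r) (T_le hN θ r) (norm_nonneg _) hle
  rw [clm_L (G := fun θ r => N θ r + Ric.T Λ N θ r * Ric.T Λ N θ r) (qL x y) le_rfl (Λ2_pos hN)
    (Tk_B0 hN) ((cont_slice hN.cont θ).add ((T_cont' hN θ).mul (T_cont' hN θ))) hb s]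
  unfold L
  refine integral_nonneg fun u => ?_
  simp only [smul_eq_mul]
  refine mul_nonneg (Real.exp_pos _).le ?_
  rw [qL_apply]
  have h1 := h0 θ (s - u) x y
  have h2 := T_symm hN hs θ (s - u)
  set a := Ric.T Λ N θ (s - u)
  have e : qf x y (N θ (s - u) + a * a) = qf x y (N θ (s - u)) +
      ((a 0 0 * x + a 0 1 * y) ^ 2 + (a 0 1 * x + a 1 1 * y) ^ 2) := by
    simp only [qf, Matrix.add_apply, Matrix.mul_apply, Fin.sum_univ_two, h2]
    ring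
  rw [e]; positivity

end Alg

end Vale.Agent.P207.Q.H183
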