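import Vale.Agent.P207.Q.H183.JU2

/-!
# P207, block JU, third part: the jets
-/

open MeasureTheory Filter Topology Set
open scoped Matrix.Norms.L2Operator RealInnerProductSpace

set_option linter.unusedSectionVars false

noncomputable section

namespace Vale.Agent.P207.Q.H183

open Vale.Agent.P207.Q.H413 Vale.Agent.P207.Q.Ric

variable {P : Type*} [TopologicalSpace P] [CompactSpace P] [FirstCountableTopology P]
  [MeasurableSpace P] [BorelSpace P] {m : Measure P} [IsFiniteMeasure m] {c : Cal (intL m)}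
variable {F : FlowS c} {K : Fin 2 → Fin 2 → c.S} {lam Λ κ C C' : ℝ}

/-- entries of a jointly continuous family of matrices -/
theorem cont_ent {G : P → ℝ → M2} (h : Continuous (Function.uncurry G)) (i j : Fin 2) :
    Continuous (Function.uncurry fun p r => G p r i j) :=
  (ent i j).continuous.comp h

theorem ent_le (i j : Fin 2) {a : M2} {b : ℝ} (h : ‖a‖ ≤ b) : |a i j| ≤ ‖ent i j‖ * b := by
  have := (ent i j).le_opNorm a
  rw [ent_apply, Real.norm_eq_abs] at this
  exact this.trans (mul_le_mul_of_nonneg_left h (ContinuousLinearMap.opNorm_nonneg _))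

/-- the jet of `N` -/
theorem jet_N (hN : HypN lam Λ (NK F K Λ)) (hM : ∀ k, HypM lam Λ κ C' (MK F K k)) (i j : Fin 2)
    (r : ℝ) : Jet c (cm (fun p r => NK F K Λ p r i j) (cont_ent hN.cont i j) r)
      (fun k => cm (fun p r => MK F K k p r i j) (cont_ent (hM k).cont i j) r) := by
  have h := Jet.of_mem (c := c) (algebraMap ℝ c.S (if i = j then Λ ^ 2 else 0) - F.pull r (K i j))
  refine h.congr ?_ fun k => ?_
  · ext p
    simp [F.pull_apply]
  · ext p
    simp

/-- The iterates are jets. -/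
theorem jet_Tk (hN : HypN lam Λ (NK F K Λ)) (hM : ∀ k, HypM lam Λ κ C' (MK F K k)) (n : ℕ) :
    ∀ (i j : Fin 2) (s : ℝ),
      Jet c (cm (fun p r => Tk Λ (NK F K Λ) n p r i j) (cont_ent (Tk_cont hN n) i j) s)
        (fun k => cm (fun p r => Sk Λ (NK F K Λ) (MK F K k) n p r i j)
          (cont_ent (Sk_cont hN (hM k) n) i j) s) := by
  induction n with
  | zero =>
    intro i j s
    refine (jet_zero c).congr ?_ fun k => ?_
    · ext p; simp [Tk]
    · ext p; simp [Sk]
  | succ n ih =>
    intro i j s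
    have hκ := (hM .X).κ0
    have hlt := (hM .X).lt hN
    -- the integrand
    have hG := cont_ent (Tk_G hN n) i j
    have hD := fun k => cont_ent (Sk_G hN (hM k) n) i j
    set B : ℝ := ‖ent i j‖ * ((Λ ^ 2 - lam ^ 2) + (Λ - lam) * (Λ - lam)) +
      ‖ent i j‖ * (C' + 2 * (Λ - lam) * Cd lam κ C') with hB
    have hB1 : 0 ≤ ‖ent i j‖ * ((Λ ^ 2 - lam ^ 2) + (Λ - lam) * (Λ - lam)) :=
      mul_nonneg (ContinuousLinearMap.opNorm_nonneg _) (Tk_B0 hN)
    have hB2 : 0 ≤ ‖ent i j‖ * (C' + 2 * (Λ - lam) * Cd lam κ C') :=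
      mul_nonneg (ContinuousLinearMap.opNorm_nonneg _) (Sk_B0 hN (hM .X))
    have hGb : ∀ p r, |(NK F K Λ p r + Tk Λ (NK F K Λ) n p r * Tk Λ (NK F K Λ) n p r) i j| ≤
        B * Real.exp (κ * |r|) := by
      intro p r
      refine (ent_le i j (Tk_bd hN n p r)).trans ?_
      rw [zero_mul, Real.exp_zero, mul_one]
      have h1 : (1 : ℝ) ≤ Real.exp (κ * |r|) := Real.one_le_exp (by positivity)
      calc _ ≤ B := by rw [hB]; linarith
        _ ≤ B * Real.exp (κ * |r|) := le_mul_of_one_le_right (by positivity) h1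
    have hDb : ∀ k p r, |(MK F K k p r + (Sk Λ (NK F K Λ) (MK F K k) n p r * Tk Λ (NK F K Λ) n p r
        + Tk Λ (NK F K Λ) n p r * Sk Λ (NK F K Λ) (MK F K k) n p r)) i j| ≤
        B * Real.exp (κ * |r|) := by
      intro k p r
      refine (ent_le i j (Sk_bd hN (hM k) n p r)).trans ?_
      rw [← mul_assoc]
      refine mul_le_mul_of_nonneg_right ?_ (Real.exp_pos _).le
      rw [hB]; linarith
    have eT : (fun p s => Tk Λ (NK F K Λ) (n + 1) p s i j) = L Λ (fun p r =>
        (NK F K Λ p r + Tk Λ (NK F K Λ) n p r * Tk Λ (NK F K Λ) n p r) i j) := by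
      funext p s
      have := clm_Tk hN (ent i j) n p s
      simpa only [ent_apply] using this
    have eS : ∀ k, (fun p s => Sk Λ (NK F K Λ) (MK F K k) (n + 1) p s i j) = L Λ (fun p r =>
        (MK F K k p r + (Sk Λ (NK F K Λ) (MK F K k) n p r * Tk Λ (NK F K Λ) n p r
        + Tk Λ (NK F K Λ) n p r * Sk Λ (NK F K Λ) (MK F K k) n p r)) i j) := by
      intro k
      funext p s
      have := clm_Sk hN (hM k) (ent i j) n p s
      simpa only [ent_apply] using this
    have hLG := cont_ent (Tk_cont hN (n + 1)) i j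
    have hLD := fun k => cont_ent (Sk_cont hN (hM k) (n + 1)) i j
    rw [eT] at hLG
    have hLD' : ∀ k, Continuous (Function.uncurry (L Λ (fun p r =>
        (MK F K k p r + (Sk Λ (NK F K Λ) (MK F K k) n p r * Tk Λ (NK F K Λ) n p r
        + Tk Λ (NK F K Λ) n p r * Sk Λ (NK F K Λ) (MK F K k) n p r)) i j))) := by
      intro k
      have := hLD k
      rwa [eS k] at this
    have key := jet_L (c := c) (Λ := Λ) hκ hlt (B := B) (by positivity) hG hGb hD hDb
      (fun r => ?_) hLG hLD' s
    · refine key.congr ?_ fun k => ?_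
      · ext p
        exact (congrFun (congrFun eT p) s).symm
      · ext p
        exact (congrFun (congrFun (eS k) p) s).symm
    · -- the integrand is a jet
      have hj := (jet_N hN hM i j r).add
        (((ih i 0 r).mul (ih 0 j r)).add ((ih i 1 r).mul (ih 1 j r)))
      refine hj.congr ?_ fun k => ?_
      · ext p
        simp only [ContinuousMap.add_apply, ContinuousMap.mul_apply, cm_apply, Matrix.add_apply,
          Matrix.mul_apply, Fin.sum_univ_two]
      · ext p
        simp only [ContinuousMap.add_apply, ContinuousMap.mul_apply, cm_apply, Matrix.add_apply,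
          Matrix.mul_apply, Fin.sum_univ_two]
        ring

/-- uniform convergence gives convergence of slices -/
theorem cm_tendsto {G : ℕ → P → ℝ → ℝ} {G' : P → ℝ → ℝ}
    (hG : ∀ n, Continuous (Function.uncurry (G n))) (hG' : Continuous (Function.uncurry G'))
    {s : ℝ} {e : ℕ → ℝ} (he : Tendsto e atTop (𝓝 0)) (he0 : ∀ n, 0 ≤ e n)
    (h : ∀ n p, |G n p s - G' p s| ≤ e n) :
    Tendsto (fun n => cm (G n) (hG n) s) atTop (𝓝 (cm G' hG' s)) := by
  rw [tendsto_iff_norm_sub_tendsto_zero]
  refine squeeze_zero (fun n => norm_nonneg _) (fun n => ?_) he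
  rw [ContinuousMap.norm_le _ (he0 n)]
  exact fun p => h n p

/-- **The solution `T` is a jet.** -/
theorem jet_T (hN : HypN lam Λ (NK F K Λ)) (hM : ∀ k, HypM lam Λ κ C' (MK F K k))
    (i j : Fin 2) (s : ℝ) :
    Jet c (cm (fun p r => Ric.T Λ (NK F K Λ) p r i j) (cont_ent (T_cont hN) i j) s)
      (fun k => cm (fun p r => Ric.S Λ (NK F K Λ) (MK F K k) p r i j)
        (cont_ent (S_cont hN (hM k)) i j) s) := by
  refine jet_of_tendsto (fun n => jet_Tk hN hM n i j s) ?_ fun k => ?_
  · have h1 : Tendsto (fun n : ℕ => ‖ent i j‖ * ((Λ - lam) * ((Λ - lam) / Λ) ^ n /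
        (1 - (Λ - lam) / Λ))) atTop
        (𝓝 (‖ent i j‖ * ((Λ - lam) * 0 / (1 - (Λ - lam) / Λ)))) :=
      ((((tendsto_pow_atTop_nhds_zero_of_lt_one (q_nonneg hN) (q_lt_one hN)).const_mul
        _).div_const _)).const_mul _
    rw [mul_zero, zero_div, mul_zero] at h1
    refine cm_tendsto _ _ h1 (fun n => ?_) fun n p => ?_
    · have h2 := q_nonneg hN
      have h3 := q_lt_one hN
      have h4 : 0 ≤ Λ - lam := sub_nonneg.2 hN.le
      have h5 : 0 < 1 - (Λ - lam) / Λ := by linarith
      positivity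
    · have := Tk_dist_le hN n p s
      rw [dist_eq_norm] at this
      exact ent_le i j this
  · have hr0 := rq_pos hN (hM k)
    have hr1 := rq_lt_one hN (hM k)
    have h1 : Tendsto (fun n : ℕ => ‖ent i j‖ * (bq lam Λ κ C' * Real.exp (κ * |s|) *
        rq lam Λ κ ^ n / (1 - rq lam Λ κ))) atTop
        (𝓝 (‖ent i j‖ * (bq lam Λ κ C' * Real.exp (κ * |s|) * 0 / (1 - rq lam Λ κ)))) :=
      ((((tendsto_pow_atTop_nhds_zero_of_lt_one hr0.le hr1).const_mul
        _).div_const _)).const_mul _
    rw [mul_zero, zero_div, mul_zero] at h1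
    refine cm_tendsto _ _ h1 (fun n => ?_) fun n p => ?_
    · have hb0 := bq_nonneg hN (hM k)
      have h5 : 0 < 1 - rq lam Λ κ := by linarith
      positivity
    · have := Sk_dist_le hN (hM k) n p s
      rw [dist_eq_norm] at this
      exact ent_le i j this

/-- jets are differentiable along the flow -/
theorem jet_hasDerivAt (F : FlowS c) {f : C(P, ℝ)} {d : Idx → C(P, ℝ)} (hj : Jet c f d) (p : P)
    (r : ℝ) : HasDerivAt (fun r => f (F.φ r p)) (d .X (F.φ r p)) r := by
  obtain ⟨u, hu, hu'⟩ := hj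
  refine hasDerivAt_of_tendstoUniformly (l := atTop)
    (f := fun n r => ((u n : c.S) : C(P, ℝ)) (F.φ r p))
    (f' := fun n r => ((c.Y .X (u n) : c.S) : C(P, ℝ)) (F.φ r p))
    (g' := fun r => d .X (F.φ r p)) ?_ (Eventually.of_forall fun n r => F.deriv (u n) p r)
    (fun r => ?_) r
  · have h1 := ContinuousMap.tendsto_iff_tendstoUniformly.1 (hu' .X)
    exact h1.comp fun r => F.φ r p
  · have h1 := ContinuousMap.tendsto_iff_tendstoUniformly.1 hu
    exact h1.tendsto_at (F.φ r p)

end Vale.Agent.P207.Q.H183
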