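import Vale.Agent.P207.Q.H183.JU3

/-!
# P207, block JU, last part: the unstable solution `U` as a `C¹` jet, with the Riccati equation,
the symmetry, the rotation relations and the bounds
-/

open MeasureTheory Filter Topology Set
open scoped Matrix.Norms.L2Operator RealInnerProductSpace

set_option linter.unusedSectionVars false

noncomputable section

namespace Vale.Agent.P207.Q.H183

open Vale.Agent.P207.Q.H413 Vale.Agent.P207.Q.Ric

variable {P : Type*} [TopologicalSpace P] [CompactSpace P]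
  [MeasurableSpace P] [BorelSpace P] {m : Measure P} [IsFiniteMeasure m] {c : Cal (intL m)}

/-- The unstable solution of the Riccati equation with its first derivatives. -/
structure USol (F : FlowS c) (K : Fin 2 → Fin 2 → c.S) (lam Λ : ℝ) where
  U : Fin 2 → Fin 2 → C(P, ℝ)
  dU : Fin 2 → Fin 2 → Idx → C(P, ℝ)
  jU : ∀ i j, Jet c (U i j) (dU i j)
  symU : U 1 0 = U 0 1
  symd : ∀ k, dU 1 0 k = dU 0 1 k
  ric : ∀ i j, dU i j .X = (K i j : C(P, ℝ)) - ∑ k, U i k * U k j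
  R00 : dU 0 0 .R = 2 * U 0 1
  R01 : dU 0 1 .R = U 1 1 - U 0 0
  R11 : dU 1 1 .R = - 2 * U 0 1
  lower : ∀ p (x y : ℝ), lam * (x ^ 2 + y ^ 2) ≤
    U 0 0 p * x ^ 2 + 2 * U 0 1 p * (x * y) + U 1 1 p * y ^ 2
  upper : ∀ p (x y : ℝ), U 0 0 p * x ^ 2 + 2 * U 0 1 p * (x * y) + U 1 1 p * y ^ 2 ≤
    Λ * (x ^ 2 + y ^ 2)
  flow : ∀ i j p r, HasDerivAt (fun r => U i j (F.φ r p))
    ((K i j : C(P, ℝ)) (F.φ r p) - ∑ k, U i k (F.φ r p) * U k j (F.φ r p)) r

variable [FirstCountableTopology P] {F : FlowS c} {K : Fin 2 → Fin 2 → c.S} {lam Λ κ C C' : ℝ}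

theorem NK_flow (p : P) (t r : ℝ) : NK F K Λ (F.φ t p) r = NK F K Λ p (r + t) := by
  ext i j
  simp only [NK_apply, F.add r t p]

theorem NK_symm (h : KHyp F K lam Λ κ C) (p : P) (r : ℝ) :
    NK F K Λ p r 1 0 = NK F K Λ p r 0 1 := by
  simp [h.sym]

theorem MK_symm (h : KHyp F K lam Λ κ C) (k : Idx) (p : P) (r : ℝ) :
    MK F K k p r 1 0 = MK F K k p r 0 1 := by
  simp [h.sym]

theorem two_smul_apply (f : c.S) (p : P) : ((2 * f : c.S) : C(P, ℝ)) p = 2 * (f : C(P, ℝ)) p := by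
  rw [two_mul, Subalgebra.coe_add, ContinuousMap.add_apply, two_mul]

theorem adJ_entries (a : M2) : adJ a 0 0 = a 0 1 + a 1 0 ∧ adJ a 0 1 = a 1 1 - a 0 0 ∧
    adJ a 1 0 = a 1 1 - a 0 0 ∧ adJ a 1 1 = - (a 0 1 + a 1 0) := by
  have h00 : JJ 0 0 = 0 := rfl
  have h01 : JJ 0 1 = -1 := rfl
  have h10 : JJ 1 0 = 1 := rfl
  have h11 : JJ 1 1 = 0 := rfl
  rw [adJ_apply]
  refine ⟨?_, ?_, ?_, ?_⟩ <;>
    simp only [Matrix.sub_apply, Matrix.mul_apply, Fin.sum_univ_two, h00, h01, h10, h11] <;> ring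

theorem MK_R (h : KHyp F K lam Λ κ C) (p : P) (r : ℝ) :
    MK F K .R p r = adJ (NK F K Λ p r) := by
  have e00 : ((c.Y .R (F.pull r (K 0 0)) : c.S) : C(P, ℝ)) p =
      2 * (K 0 1 : C(P, ℝ)) (F.φ r p) := by
    rw [h.R_pull, F.pull_apply, h.R00, two_smul_apply]
  have e01 : ((c.Y .R (F.pull r (K 0 1)) : c.S) : C(P, ℝ)) p =
      (K 1 1 : C(P, ℝ)) (F.φ r p) - (K 0 0 : C(P, ℝ)) (F.φ r p) := by
    rw [h.R_pull, F.pull_apply, h.R01]; simp
  have e11 : ((c.Y .R (F.pull r (K 1 1)) : c.S) : C(P, ℝ)) p =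
      - (2 * (K 0 1 : C(P, ℝ)) (F.φ r p)) := by
    rw [h.R_pull, F.pull_apply, h.R11, neg_mul, Subalgebra.coe_neg, ContinuousMap.neg_apply,
      two_smul_apply]
  obtain ⟨a00, a01, a10, a11⟩ := adJ_entries (NK F K Λ p r)
  have b : ∀ i j, NK F K Λ p r i j = (if i = j then Λ ^ 2 else 0) -
    (K i j : C(P, ℝ)) (F.φ r p) := fun i j => rfl
  ext i j
  rw [MK_apply]
  fin_cases i <;> fin_cases j
  · simp only [Fin.zero_eta, Fin.isValue]
    rw [e00, a00, b, b, h.sym]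
    simp; ring
  · simp only [Fin.zero_eta, Fin.isValue, Fin.mk_one]
    rw [e01, a01, b, b]
    simp
  · simp only [Fin.zero_eta, Fin.isValue, Fin.mk_one]
    rw [h.sym, e01, a10, b, b]
    simp
  · simp only [Fin.isValue, Fin.mk_one]
    rw [e11, a11, b, b, h.sym]
    simp; ring

/-- **Existence of the unstable solution as a `C¹` jet.** -/
theorem exists_USol (h : KHyp F K lam Λ κ C) : Nonempty (USol F K lam Λ) := by
  have hN := hypN h
  obtain ⟨C', hM⟩ := exists_hypM h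
  -- the functions
  let T0 : Fin 2 → Fin 2 → C(P, ℝ) := fun i j =>
    cm (fun p r => Ric.T Λ (NK F K Λ) p r i j) (cont_ent (T_cont hN) i j) 0
  let S0 : Fin 2 → Fin 2 → Idx → C(P, ℝ) := fun i j k =>
    cm (fun p r => Ric.S Λ (NK F K Λ) (MK F K k) p r i j) (cont_ent (S_cont hN (hM k)) i j) 0
  have hT0 : ∀ i j p, T0 i j p = Ric.T Λ (NK F K Λ) p 0 i j := fun i j p => rfl
  have hS0 : ∀ i j k p, S0 i j k p = Ric.S Λ (NK F K Λ) (MK F K k) p 0 i j :=
    fun i j k p => rfl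
  have hTs : ∀ p s, Ric.T Λ (NK F K Λ) p s 1 0 = Ric.T Λ (NK F K Λ) p s 0 1 :=
    T_symm hN (fun p r => NK_symm h p r)
  let U : Fin 2 → Fin 2 → C(P, ℝ) := fun i j =>
    algebraMap ℝ C(P, ℝ) (if i = j then Λ else 0) - T0 i j
  have hU : ∀ i j p, U i j p = (if i = j then Λ else 0) - Ric.T Λ (NK F K Λ) p 0 i j := by
    intro i j p
    rfl
  let dU : Fin 2 → Fin 2 → Idx → C(P, ℝ) := fun i j k => - S0 i j k
  have hdU : ∀ i j k p, dU i j k p = - Ric.S Λ (NK F K Λ) (MK F K k) p 0 i j :=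
    fun i j k p => rfl
  have jU : ∀ i j, Jet c (U i j) (dU i j) := by
    intro i j
    have h1 := (Jet.of_mem (c := c) (algebraMap ℝ c.S (if i = j then Λ else 0))).sub
      (jet_T hN hM i j 0)
    refine h1.congr rfl fun k => ?_
    ext p
    simp [dU, S0]
  have hUf : ∀ i j p r, U i j (F.φ r p) = (if i = j then Λ else 0) -
      Ric.T Λ (NK F K Λ) p r i j := by
    intro i j p r
    rw [hU, T_flow hN (φ := F.φ) (fun p t r => NK_flow p t r) p r 0, zero_add]
  have flow : ∀ i j p r, HasDerivAt (fun r => U i j (F.φ r p))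
      ((K i j : C(P, ℝ)) (F.φ r p) - ∑ k, U i k (F.φ r p) * U k j (F.φ r p)) r := by
    intro i j p r
    have h1 := (ent i j).hasFDerivAt.comp_hasDerivAt r (hasDerivAt_T hN p r)
    have h2 := (hasDerivAt_const r (if i = j then Λ else 0)).sub h1
    have h3 : (fun r => U i j (F.φ r p)) = fun r => (if i = j then Λ else 0) -
        (ent i j ∘ Ric.T Λ (NK F K Λ) p) r := by
      funext r
      rw [hUf]; rfl
    rw [h3]
    refine h2.congr_deriv ?_
    simp only [hUf, ent_apply, Matrix.add_apply, Matrix.sub_apply, Matrix.smul_apply,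
      Matrix.mul_apply, Fin.sum_univ_two, NK_apply, smul_eq_mul]
    fin_cases i <;> fin_cases j <;> simp <;> ring
  refine ⟨⟨U, dU, jU, ?_, ?_, ?_, ?_, ?_, ?_, ?_, ?_, flow⟩⟩
  · ext p; rw [hU, hU, hTs]; simp
  · intro k; ext p
    rw [hdU, hdU, S_symm hN (hM k) (fun p r => NK_symm h p r) (fun p r => MK_symm h k p r)]
  · intro i j; ext p
    have h1 := jet_hasDerivAt F (jU i j) p 0
    have h2 := flow i j p 0
    have h3 := h1.unique h2
    simp only [F.zero] at h3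
    rw [h3]
    simp
  · ext p
    have h1 := S_rot hN (hM .R) (fun p r => MK_R h p r) p 0
    have h2 : (2 * U 0 1 : C(P, ℝ)) p = 2 * U 0 1 p := rfl
    rw [hdU, h1, (adJ_entries _).1, h2, hU, hTs]
    simp; ring
  · ext p
    have h1 := S_rot hN (hM .R) (fun p r => MK_R h p r) p 0
    rw [hdU, h1, (adJ_entries _).2.1, ContinuousMap.sub_apply, hU, hU]
    simp
  · ext p
    have h1 := S_rot hN (hM .R) (fun p r => MK_R h p r) p 0
    have h2 : (-2 * U 0 1 : C(P, ℝ)) p = -2 * U 0 1 p := rfl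
    rw [hdU, h1, (adJ_entries _).2.2.2, h2, hU, hTs]
    simp; ring
  · intro p x y
    have h1 := (abs_le.1 (qf_le_norm (Ric.T Λ (NK F K Λ) p 0) x y)).2
    have h2 := T_le hN p 0
    have h3 : ‖Ric.T Λ (NK F K Λ) p 0‖ * (x ^ 2 + y ^ 2) ≤ (Λ - lam) * (x ^ 2 + y ^ 2) :=
      mul_le_mul_of_nonneg_right h2 (by positivity)
    rw [hU, hU, hU]
    simp only [qf, hTs] at h1
    simp
    nlinarith
  · intro p x y
    have h1 := T_nonneg hN (fun p r => NK_symm h p r) (fun p r x y => ?_) p 0 x y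
    · rw [hU, hU, hU]
      simp only [qf, hTs] at h1
      simp
      nlinarith
    · have u := h.upper (F.φ r p) x y
      simp only [qf, NK_apply, h.sym]
      simp
      nlinarith

end Vale.Agent.P207.Q.H183
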