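import Vale.Agent.P207.Q.H183.JU4
import Vale.Agent.P207.Q.H129.Trans
import Vale.Agent.P207.Q.H413.Inst

/-!
# P207: the unstable solution over `Curv` and `TF`
-/

open MeasureTheory Filter Topology Set

set_option linter.unusedSectionVars false

noncomputable section

namespace Vale.Agent.P207.Q.H183

open Vale.Agent.P207.Q.H413 Vale.Agent.P207.Q.Trans
open Vale.Agent.P207.Q.H892 (Curv)

section Comm

variable {A : Type*} [NormedCommRing A] [NormedAlgebra ℝ A] {I : A →L[ℝ] ℝ}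

/-- `R` and `X` commute (Jacobi identity) -/
theorem RX_comm (c : Cal I) (f : c.S) : c.Y .R (c.Y .X f) = c.Y .X (c.Y .R f) := by
  have v1 : ∀ g : c.S, c.Y (.V 1) (c.Y .X g) = c.Y .X (c.Y (.V 1) g) + c.Y (.H 1) g :=
    fun g => sub_eq_iff_eq_add'.1 (c.VX 1 g)
  have v0 : ∀ g : c.S, c.Y (.V 0) (c.Y .X g) = c.Y .X (c.Y (.V 0) g) + c.Y (.H 0) g :=
    fun g => sub_eq_iff_eq_add'.1 (c.VX 0 g)
  have h01 := c.VH 0 1 f
  have h10 := c.VH 1 0 f
  rw [if_neg (by decide), sub_eq_zero] at h01 h10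
  rw [← c.VV (c.Y .X f), v1 f, v0 f, map_add, map_add, v0, v1, h01, h10, ← c.VV f, map_sub]
  abel

end Comm

variable {P : Type} [TopologicalSpace P] [CompactSpace P] [MeasurableSpace P] [BorelSpace P]
  {m : Measure P} [IsFiniteMeasure m] {c : Cal (intL m)} {ψ : Idx → ℝ → P → P}

/-- the flow of `X` -/
def flowOf (T : TF c ψ) : FlowS c where
  φ := ψ .X
  cont := T.cont .X
  zero := T.zero .X
  add := T.add
  pull := T.cmp
  pull_apply := T.cmp_apply
  contY := T.jcont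
  deriv := T.deriv .X

/-- the matrix `K` in `S` -/
def KS (C : Curv c) (i j : Fin 2) : c.S :=
  if i = 0 then (if j = 0 then C.E22 else - C.E12) else (if j = 0 then - C.E12 else C.E11)

theorem coe_KS (C : Curv c) (i j : Fin 2) : ((KS C i j : c.S) : C(P, ℝ)) = C.K i j := by
  fin_cases i <;> fin_cases j <;> simp [KS, Curv.K]

theorem K00 (C : Curv c) : C.K 0 0 = (C.E22 : C(P, ℝ)) := rfl
theorem K01 (C : Curv c) : C.K 0 1 = - (C.E12 : C(P, ℝ)) := rfl
theorem K10 (C : Curv c) : C.K 1 0 = - (C.E12 : C(P, ℝ)) := rfl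
theorem K11 (C : Curv c) : C.K 1 1 = (C.E11 : C(P, ℝ)) := rfl
theorem k00 (C : Curv c) : KS C 0 0 = C.E22 := rfl
theorem k01 (C : Curv c) : KS C 0 1 = - C.E12 := rfl
theorem k10 (C : Curv c) : KS C 1 0 = - C.E12 := rfl
theorem k11 (C : Curv c) : KS C 1 1 = C.E11 := rfl

/-- the commutator of `H_i` and `X` in the form of `TF.exists_growth` -/
theorem HX_comm (C : Curv c) (i : Fin 2) (f : c.S) :
    ((c.Y (.H i) (c.Y .X f) : c.S) : C(P, ℝ)) - ((c.Y .X (c.Y (.H i) f) : c.S) : C(P, ℝ)) =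
      ∑ j, C.K i j * ((c.Y (.V j) f : c.S) : C(P, ℝ)) +
        (if i = 0 then (C.E02 : C(P, ℝ)) else - (C.E01 : C(P, ℝ))) *
          ((c.Y .R f : c.S) : C(P, ℝ)) := by
  rw [Fin.sum_univ_two]
  match i with
  | 0 =>
    have h := congrArg (fun g : c.S => (g : C(P, ℝ))) (C.XH0 f)
    simp only [Subalgebra.coe_sub, Subalgebra.coe_neg, Subalgebra.coe_mul] at h
    rw [K00, K01, if_pos rfl]
    linear_combination -h
  | 1 =>
    have h := congrArg (fun g : c.S => (g : C(P, ℝ))) (C.XH1 f)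
    simp only [Subalgebra.coe_sub, Subalgebra.coe_neg, Subalgebra.coe_mul,
      Subalgebra.coe_add] at h
    rw [K10, K11, if_neg (by decide)]
    linear_combination -h

theorem qform (C : Curv c) (p : P) (x : Fin 2 → ℝ) :
    ∑ i, ∑ j, x i * C.K i j p * x j = C.K 0 0 p * x 0 ^ 2 +
          2 * C.K 0 1 p * (x 0 * x 1) + C.K 1 1 p * x 1 ^ 2 := by
  simp only [Fin.sum_univ_two, K10, K01]
  ring

/-- the growth of the derivatives of `f ∘ φ_r` -/
theorem growth_of_curv (C : Curv c) (T : TF c ψ) {Λ : ℝ} (hΛ : 0 < Λ)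
    (lower : ∀ p (x y : ℝ), 0 ≤
      C.K 0 0 p * x ^ 2 + 2 * C.K 0 1 p * (x * y) + C.K 1 1 p * y ^ 2)
    (upper : ∀ p (x y : ℝ), C.K 0 0 p * x ^ 2 + 2 * C.K 0 1 p * (x * y) + C.K 1 1 p * y ^ 2 ≤
      Λ ^ 2 * (x ^ 2 + y ^ 2)) (f : c.S) : ∃ B, 0 ≤ B ∧ ∀ k r p,
      |(c.Y k (T.cmp r f) : C(P, ℝ)) p| ≤ B * Real.exp (Λ * |r|) := by
  refine T.exists_growth (K := C.K)
      (ρ := fun i => if i = 0 then (C.E02 : C(P, ℝ)) else - (C.E01 : C(P, ℝ)))
      (RX_comm c) (HX_comm C) hΛ (fun i j => ?_) (fun p x => ?_) (fun p x => ?_) f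
  · match i, j with
    | 0, 0 => rfl
    | 0, 1 => rfl
    | 1, 0 => rfl
    | 1, 1 => rfl
  · rw [qform]; exact lower p (x 0) (x 1)
  · rw [qform, Fin.sum_univ_two]; exact upper p (x 0) (x 1)

variable [FirstCountableTopology P]

theorem exists_KHyp (C : Curv c) (T : TF c ψ) {lam Λ : ℝ} (hlam : 0 < lam) (hle : lam ≤ Λ)
    (hpin : Λ < 2 * lam)
    (lower : ∀ p (x y : ℝ), lam ^ 2 * (x ^ 2 + y ^ 2) ≤
      C.K 0 0 p * x ^ 2 + 2 * C.K 0 1 p * (x * y) + C.K 1 1 p * y ^ 2)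
    (upper : ∀ p (x y : ℝ), C.K 0 0 p * x ^ 2 + 2 * C.K 0 1 p * (x * y) + C.K 1 1 p * y ^ 2 ≤
      Λ ^ 2 * (x ^ 2 + y ^ 2)) : ∃ B, KHyp (flowOf T) (KS C) lam Λ Λ B := by
  have hΛ : 0 < Λ := hlam.trans_le hle
  have hgr := growth_of_curv C T hΛ (fun p x y => le_trans (by positivity) (lower p x y)) upper
  choose B hB0 hB using hgr
  have hB1 : ∀ i j, B (KS C i j) ≤ ∑ i : Fin 2, ∑ j : Fin 2, B (KS C i j) := by
    intro i j
    exact (Finset.single_le_sum (f := fun j => B (KS C i j)) (fun j _ => hB0 _)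
            (Finset.mem_univ j)).trans
      (Finset.single_le_sum (f := fun i => ∑ j : Fin 2, B (KS C i j))
            (fun i _ => Finset.sum_nonneg fun j _ => hB0 _) (Finset.mem_univ i))
  refine ⟨∑ i : Fin 2, ∑ j : Fin 2, B (KS C i j),
    { lam_pos := hlam
      le := hle
      κ0 := hΛ.le
      κ_lt := hpin
      C0 := Finset.sum_nonneg fun i _ => Finset.sum_nonneg fun j _ => hB0 _
      sym := rfl
      lower := lower
      upper := upper
      R00 := ?_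
      R01 := ?_
      R11 := ?_
      R_pull := fun r i j => ?_
      growth := fun k i j r p => (hB (KS C i j) k r p).trans
        (mul_le_mul_of_nonneg_right (hB1 i j) (Real.exp_pos _).le) }⟩
  · rw [k00, k01, C.RE22, mul_neg, two_mul]
  · rw [k01, k11, k00, map_neg, C.RE12, neg_sub]
  · rw [k11, k01, C.RE11, neg_mul_neg, two_mul]
  · apply Subtype.ext
    ext p
    rw [FlowS.pull_apply]
    exact T.R_cmp (RX_comm c) r (KS C i j) p

/-- **The unstable solution.** -/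
theorem exists_UData (C : Curv c) (T : TF c ψ) {lam Λ : ℝ} (hlam : 0 < lam) (hle : lam ≤ Λ)
    (hpin : Λ < 2 * lam)
    (lower : ∀ p (x y : ℝ), lam ^ 2 * (x ^ 2 + y ^ 2) ≤
      C.K 0 0 p * x ^ 2 + 2 * C.K 0 1 p * (x * y) + C.K 1 1 p * y ^ 2)
    (upper : ∀ p (x y : ℝ), C.K 0 0 p * x ^ 2 + 2 * C.K 0 1 p * (x * y) + C.K 1 1 p * y ^ 2 ≤
      Λ ^ 2 * (x ^ 2 + y ^ 2)) :
    ∃ D : UData c C,
      (∀ p (x y : ℝ), lam * (x ^ 2 + y ^ 2) ≤
        D.U 0 0 p * x ^ 2 + 2 * D.U 0 1 p * (x * y) + D.U 1 1 p * y ^ 2) ∧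
      (∀ p (x y : ℝ), D.U 0 0 p * x ^ 2 + 2 * D.U 0 1 p * (x * y) + D.U 1 1 p * y ^ 2 ≤
        Λ * (x ^ 2 + y ^ 2)) ∧
      (∀ i j p r, HasDerivAt (fun r => D.U i j (ψ .X r p))
        (C.K i j (ψ .X r p) - ∑ k, D.U i k (ψ .X r p) * D.U k j (ψ .X r p)) r) := by
  obtain ⟨B, hK⟩ := exists_KHyp C T hlam hle hpin lower upper
  obtain ⟨D⟩ := exists_USol hK
  refine ⟨{ U := D.U, dU := D.dU, jU := D.jU, symU := D.symU, symd := D.symd,
            ric := fun i j => by rw [D.ric, coe_KS], R00 := D.R00, R01 := D.R01,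
            R11 := D.R11 }, D.lower, D.upper, fun i j p r => ?_⟩
  have := D.flow i j p r
  rw [coe_KS] at this
  exact this

end Vale.Agent.P207.Q.H183
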