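import Vale.Agent.P207.Q.Ric3
import Vale.Agent.P207.Q.H413.Rigid
import Mathlib.Topology.Algebra.Module.ContinuousLinearMap.Quotient

/-!
# P207: jets are closed under limits and integrals
-/

open MeasureTheory Filter Topology Set

noncomputable section

namespace Vale.Agent.P207.Q.H183

open Vale.Agent.P207.Q.H413 Vale.Agent.P207.Q.Ric

/-- the six names -/
@[instance_reducible] def idxFintype : Fintype Idx where
  elems := {.X, .H 0, .H 1, .V 0, .V 1, .R}
  complete := by
    intro x
    cases x with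
    | X => simp
    | H i => fin_cases i <;> simp
    | V i => fin_cases i <;> simp
    | R => simp

attribute [local instance] idxFintype

section Graph

variable {A : Type*} [NormedCommRing A] [NormedAlgebra ℝ A] {I : A →L[ℝ] ℝ}

/-- the graph of the six derivations -/
def gr (c : Cal I) : Submodule ℝ (A × (Idx → A)) :=
  LinearMap.range (LinearMap.prod (c.S.val.toLinearMap)
    (LinearMap.pi fun k => c.S.val.toLinearMap ∘ₗ (c.Y k : c.S →ₗ[ℝ] c.S)))

theorem mem_gr {c : Cal I} {x : A × (Idx → A)} : x ∈ gr c ↔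
    ∃ u : c.S, x = ((u : A), fun k => ((c.Y k u : c.S) : A)) := by
  constructor
  · rintro ⟨u, rfl⟩
    exact ⟨u, rfl⟩
  · rintro ⟨u, rfl⟩
    exact ⟨u, rfl⟩

theorem jet_iff {c : Cal I} {f : A} {d : Idx → A} :
    Jet c f d ↔ (f, d) ∈ (gr c).topologicalClosure := by
  constructor
  · rintro ⟨u, hu, hu'⟩
    refine mem_closure_of_tendsto (f := fun n => ((u n : A), fun k => ((c.Y k (u n) : c.S) : A)))
      (b := atTop) (hu.prodMk_nhds (tendsto_pi_nhds.2 hu')) (Eventually.of_forall fun n => ?_)
    exact mem_gr.2 ⟨u n, rfl⟩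
  · intro h
    obtain ⟨x, hx, hlim⟩ := mem_closure_iff_seq_limit.1 (h : (f, d) ∈ closure (gr c : Set _))
    choose u hu using fun n => mem_gr.1 (hx n)
    refine ⟨u, ?_, fun k => ?_⟩
    · have := (continuous_fst.tendsto _).comp hlim
      refine this.congr fun n => ?_
      simp [hu n]
    · have := ((continuous_apply k).tendsto _).comp ((continuous_snd.tendsto _).comp hlim)
      refine this.congr fun n => ?_
      simp [hu n]

theorem jet_of_tendsto {c : Cal I} {f : A} {d : Idx → A} {F : ℕ → A} {D : ℕ → Idx → A}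
    (h : ∀ n, Jet c (F n) (D n)) (hF : Tendsto F atTop (𝓝 f))
    (hD : ∀ k, Tendsto (fun n => D n k) atTop (𝓝 (d k))) : Jet c f d := by
  rw [jet_iff]
  exact (gr c).isClosed_topologicalClosure.mem_of_tendsto
    (f := fun n => (F n, D n)) (b := atTop) (hF.prodMk_nhds (tendsto_pi_nhds.2 hD))
    (Eventually.of_forall fun n => jet_iff.1 (h n))

theorem jet_smul {c : Cal I} {f : A} {d : Idx → A} (h : Jet c f d) (a : ℝ) :
    Jet c (a • f) (fun k => a • d k) := by
  rw [jet_iff] at h ⊢
  exact (gr c).topologicalClosure.smul_mem a h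

theorem jet_zero (c : Cal I) : Jet c (0 : A) (fun _ => 0) := by
  rw [jet_iff]
  exact (gr c).topologicalClosure.zero_mem

theorem jet_integral [CompleteSpace A] {c : Cal I} {μ : Measure ℝ} {F : ℝ → A}
    {D : ℝ → Idx → A} (h : ∀ u, Jet c (F u) (D u)) (hF : Integrable F μ)
    (hD : ∀ k, Integrable (fun u => D u k) μ) :
    Jet c (∫ u, F u ∂μ) (fun k => ∫ u, D u k ∂μ) := by
  have hcl : IsClosed (((gr c).topologicalClosure : Submodule ℝ (A × (Idx → A))) :
    Set (A × (Idx → A))) := (gr c).isClosed_topologicalClosure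
  have hDi : Integrable D μ := Integrable.of_eval hD
  have hG : Integrable (fun u => (F u, D u)) μ := hF.prodMk hDi
  rw [jet_iff]
  have e : ((∫ u, F u ∂μ), fun k => ∫ u, D u k ∂μ) = ∫ u, (F u, D u) ∂μ := by
    have h1 : (∫ u, (F u, D u) ∂μ).1 = ∫ u, F u ∂μ := by
      have := (ContinuousLinearMap.fst ℝ A (Idx → A)).integral_comp_comm hG
      simpa using this.symm
    have h2 : (∫ u, (F u, D u) ∂μ).2 = fun k => ∫ u, D u k ∂μ := by
      funext k
      have := ((ContinuousLinearMap.proj (R := ℝ) (φ := fun _ : Idx => A) k).comp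
        (ContinuousLinearMap.snd ℝ A (Idx → A))).integral_comp_comm hG
      simpa using this.symm
    rw [← h1, ← h2]
  rw [e, ← Submodule.Quotient.mk_eq_zero]
  have := hcl
  have h3 := ((gr c).topologicalClosure.mkQL).integral_comp_comm hG
  have h4 : (fun u => (gr c).topologicalClosure.mkQL (F u, D u)) = fun _ => 0 := by
    funext u
    exact (Submodule.Quotient.mk_eq_zero _).2 (jet_iff.1 (h u))
  rw [h4, integral_zero] at h3
  exact h3.symm

end Graph

end Vale.Agent.P207.Q.H183
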